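import Mathlib
import Vale.Agent.P199.Struct

namespace Vale.Agent.Results.P199.FiniteSplitting

open Vale.Agent.P199

universe t u v w

def FDComm (K : Type t) [Field K] : Prop :=
  ∀ (B : Type t) [DivisionRing B] [Algebra K B] [FiniteDimensional K B] (x y : B), x * y = y * x

def LocallyFinite (k : Type u) (D : Type w) [Field k] [DivisionRing D] [Algebra k D] : Prop :=
  ∀ S : Finset D, Module.Finite k (Algebra.adjoin k (S : Set D))

def CentreCentralizerDivision (F : Type v) (M : Type w) [Field F] [Ring M] [Algebra F M]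
    (B : Subalgebra F M) : Prop :=
  ∀ T : M, (∀ z ∈ B, (∀ b ∈ B, z * b = b * z) → T * z = z * T) → T ≠ 0 → IsUnit T

def HasFactor (F : Type v) (M : Type w) [Field F] [Ring M] [Algebra F M] : Prop :=
  ∃ B : Subalgebra F M, Module.Finite F B ∧ (∃ x y : B, x * y ≠ y * x) ∧
    CentreCentralizerDivision F M B

theorem result (k : Type u) (F : Type v) (D : Type w) [Field k] [Uncountable k] [Field F]
    [DivisionRing D] [Algebra F D] [Algebra.IsCentral F D] [Algebra k F] [Algebra k D]
    [IsScalarTower k F D] :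
    (∀ (k' : Type t) [Field k'] [Algebra k k'] [FiniteDimensional k k'], FDComm k' →
      (Algebra.IsAlgebraic k D → FiniteDimensional F D ∧
        Module.finrank F D ≤ (Module.finrank k k') ^ 2 ∧ LocallyFinite k D) ∧
      (Algebra.FiniteType k D → FiniteDimensional k D)) ∧
    (Algebra.IsAlgebraic k D → (∃ x y : D, x * y ≠ y * x) →
      ∃ n : ℕ, HasFactor F (Module.End D (Fin n → D))) := by
  refine ⟨?_, ?_⟩
  · intro k' _ _ _ hk'
    have key : Algebra.IsAlgebraic k D → FiniteDimensional F D ∧
        Module.finrank F D ≤ (Module.finrank k k') ^ 2 ∧ LocallyFinite k D := by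
      intro halg
      have halgF : Algebra.IsAlgebraic k F := by
        constructor
        intro x
        have h1 : IsAlgebraic k (algebraMap F D x) := Algebra.IsAlgebraic.isAlgebraic _
        exact (isAlgebraic_algebraMap_iff (algebraMap F D).injective).mp h1
      obtain ⟨K, _, _, _, ι, hι, hle⟩ := exists_compositum k k' F
      obtain ⟨h1, h2⟩ := descent hk' (D := D) ι hι
      exact ⟨h1, h2.trans (Nat.pow_le_pow_left hle 2),
        fun S => loc_fin (F := F) (S : Set D) S.finite_toSet⟩
    refine ⟨key, fun h => ?_⟩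
    obtain ⟨S, hS⟩ := h.out
    have h1 := (key (algebraic_of_fg h)).2.2 S
    rw [hS] at h1
    exact Module.Finite.equiv (Subalgebra.topEquiv (R := k) (A := D)).toLinearEquiv
  · rintro halg ⟨x, y, hxy⟩
    have hnc : (⊥ : Subalgebra F D) ≠ ⊤ := by
      intro h
      have hx : x ∈ (⊥ : Subalgebra F D) := by rw [h]; trivial
      obtain ⟨c, rfl⟩ := Algebra.mem_bot.mp hx
      exact hxy (Algebra.commutes c y)
    obtain ⟨n, E, B, _, h2, h3, h4, h5, h6, _, a, b, hab⟩ := exists_struct (k := k)
      (fun n T => isAlgebraic_end T) hnc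
    obtain ⟨B', g1, g2, g3, g4⟩ := exists_join E h2 h3 B h6 h5
    refine ⟨n, B', g1, ⟨⟨a, g2 _ a.2⟩, ⟨b, g2 _ b.2⟩, fun h => ?_⟩, fun T hT hT0 => ?_⟩
    · have h8 := congrArg (fun z : B' => (z : Module.End D (Fin n → D))) h
      exact hab (Subtype.ext h8)
    · exact h4 T (fun e he => hT e (g3 e he) (g4 e he)) hT0

end Vale.Agent.Results.P199.FiniteSplitting
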