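import Vale.Agent.P199K.Bridge

/-!
# P199: Kurosh's problem for division rings has a negative answer
-/

theorem Vale.Agent.Results.P199.Kurosh.result :
    ∃ (k D : Type) (_ : Field k) (_ : DivisionRing D) (_ : Algebra k D) (x y : D),
      Algebra.adjoin k {x, y} = ⊤ ∧ (∀ a : D, IsAlgebraic k a) ∧ ¬ FiniteDimensional k D ∧
      Algebra.adjoin (Subring.center D) {x, y} = ⊤ ∧
      (∀ a : D, IsAlgebraic (Subring.center D) a) ∧
      ¬ FiniteDimensional (Subring.center D) D := by
  obtain ⟨k, D, ik, iD, ia, ⟨x, y, hxy⟩, halg, hk, hZ⟩ := Vale.Agent.P199K.kurosh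
  have hc : ∀ c : k, algebraMap k D c ∈ Subring.center D := by
    intro c
    rw [Subring.mem_center_iff]
    intro g
    exact (Algebra.commutes c g).symm
  refine ⟨k, D, ik, iD, ia, x, y, hxy, fun a => Algebra.IsAlgebraic.isAlgebraic a, hk, ?_, ?_, hZ⟩
  · rw [eq_top_iff]
    intro z _
    have hz : z ∈ Algebra.adjoin k ({x, y} : Set D) := by rw [hxy]; trivial
    induction hz using Algebra.adjoin_induction with
    | mem a ha => exact Algebra.subset_adjoin ha
    | algebraMap c =>
      exact Subalgebra.algebraMap_mem (Algebra.adjoin (Subring.center D) {x, y}) ⟨_, hc c⟩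
    | add a b _ _ ha hb => exact add_mem (ha trivial) (hb trivial)
    | mul a b _ _ ha hb => exact mul_mem (ha trivial) (hb trivial)
  · intro a
    obtain ⟨p, hp0, hp⟩ := halg.isAlgebraic a
    let f : k →+* Subring.center D := (algebraMap k D).codRestrict (Subring.center D) hc
    refine ⟨p.map f, (Polynomial.map_ne_zero_iff f.injective).2 hp0, ?_⟩
    rw [Polynomial.aeval_def, Polynomial.eval₂_map]
    exact hp
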